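import Vale.Agent.P143.Final
import Vale.Agent.P143.Cayley
import Vale.Agent.P143.Equiv
import Vale.Agent.P143.Phi
import Vale.Agent.P143.FusfC

open MeasureTheory ProbabilityTheory Vale.Agent.P143

namespace Vale.Agent.Results.P143.FusfFactor

universe u

theorem result :
    (∀ (Γ : Type u) [Group Γ] [Infinite Γ] (S : Finset Γ), Subgroup.closure (S : Set Γ) = ⊤ →
      ∃ μ, IsFUSF (cayleyGraph S) μ ∧ IsFactorOfIID μ) ∧
    (∀ P : Measure (SimpleGraph ℕ × ℕ), IsUnimodular P → IsGraphFactorOfIID P) := by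
  have hU : Q1Unimodular := unimodular_final exists_FK (fun μF _ hF => eqIn μF hF)
    (fun μF _ hF => exists_Phi μF hF)
  refine ⟨?_, hU⟩
  intro Γ _ _ S hS
  exact cayley_of_unimodular_univ hU Γ S hS

end Vale.Agent.Results.P143.FusfFactor
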