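import Vale.Agent.Results.P143.FusfFactor

open MeasureTheory Filter Topology

namespace Vale.Agent.Results.P143.FusfFactorEdgewise

universe u v

/-- Probability that the uniform spanning tree of the finite connected graph `H` agrees with the
edge set `A` on `S`. Spanning trees are trees on the vertex set of `H` all of whose edges are
edges of `H`. -/
noncomputable def ust {V : Type u} {G : SimpleGraph V} (H : G.Subgraph)
    (S : Finset (Sym2 V)) (A : Set (Sym2 V)) : ℝ :=
  (Nat.card {T : SimpleGraph H.verts // (T ≤ H.coe ∧ T.IsTree) ∧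
      ∀ e ∈ S, (e ∈ Sym2.map Subtype.val '' T.edgeSet ↔ e ∈ A)} : ℝ)
    / (Nat.card {T : SimpleGraph H.verts // T ≤ H.coe ∧ T.IsTree} : ℝ)

/-- `H 0 ⊆ H 1 ⊆ ...` are finite connected subgraphs of `G` with union `G`. -/
def Exhausts {V : Type u} (G : SimpleGraph V) (H : ℕ → G.Subgraph) : Prop :=
  (∀ n, H n ≤ H (n + 1)) ∧ (∀ n, (H n).verts.Finite ∧ (H n).Connected) ∧
    (∀ v, ∃ n, v ∈ (H n).verts) ∧ (∀ v w, G.Adj v w → ∃ n, (H n).Adj v w)

/-- The random edge set `{e | X U e = true}`, with `U` i.i.d. uniform labels of the vertices,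
has law the free uniform spanning forest of `G`. -/
def HasLawFUSF {V : Type u} (G : SimpleGraph V) (X : (V → unitInterval) → Sym2 V → Bool) : Prop :=
  (∃ H, Exhausts G H) ∧ ∀ H, Exhausts G H → ∀ (S : Finset (Sym2 V)) (A : Set (Sym2 V)),
    Tendsto (fun n => ust (H n) S A) atTop
      (𝓝 ((Measure.infinitePi (fun _ : V => (volume : Measure unitInterval))).real
        {U | ∀ e ∈ S, (X U e = true ↔ e ∈ A)}))

lemma exhausts_iff {V : Type u} (G : SimpleGraph V) (H : ℕ → G.Subgraph) :
    Exhausts G H ↔ Vale.Agent.P143.IsExhaustion G H := by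
  constructor
  · rintro ⟨h1, h2, h3, h4⟩
    refine ⟨monotone_nat_of_le_succ h1, fun n => (h2 n).1, fun n => (h2 n).2, ?_⟩
    rw [eq_top_iff]
    constructor
    · intro v _
      obtain ⟨n, hn⟩ := h3 v
      exact (le_iSup H n).1 hn
    · intro v w hvw
      obtain ⟨n, hn⟩ := h4 v w (by simpa using hvw)
      exact (le_iSup H n).2 hn
  · rintro ⟨h1, h2, h3, h4⟩
    refine ⟨fun n => h1 (Nat.le_succ n), fun n => ⟨h2 n, h3 n⟩, fun v => ?_, fun v w hvw => ?_⟩
    · have : v ∈ (⨆ n, H n).verts := by rw [h4]; trivial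
      simpa using this
    · have : (⨆ n, H n).Adj v w := by rw [h4]; simpa using hvw
      simpa using this

lemma back_edges {V : Type u} (W : Set V) (T : SimpleGraph W) :
    (SimpleGraph.fromEdgeSet (Sym2.map Subtype.val '' T.edgeSet)).induce W = T := by
  ext x y
  simp only [SimpleGraph.comap_adj, Function.Embedding.subtype_apply,
    SimpleGraph.fromEdgeSet_adj]
  constructor
  · rintro ⟨⟨e, he, hxy⟩, -⟩
    have : e = s(x, y) := by
      apply Sym2.map.injective Subtype.val_injective
      simpa using hxy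
    rw [this] at he
    simpa using he
  · intro h
    exact ⟨⟨s(x, y), by simpa using h, by simp⟩, fun hh => h.ne (Subtype.ext hh)⟩

lemma fwd_edges {V : Type u} {G : SimpleGraph V} (H : G.Subgraph) (T : Set (Sym2 V))
    (hT : T ⊆ H.edgeSet) :
    Sym2.map Subtype.val '' ((SimpleGraph.fromEdgeSet T).induce H.verts).edgeSet = T := by
  ext e
  constructor
  · rintro ⟨d, hd, rfl⟩
    induction d using Sym2.ind with
    | _ x y =>
      simp only [SimpleGraph.mem_edgeSet, SimpleGraph.comap_adj,
        Function.Embedding.subtype_apply, SimpleGraph.fromEdgeSet_adj] at hd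
      simpa using hd.1
  · intro he
    have h1 := hT he
    induction e using Sym2.ind with
    | _ x y =>
      have h2 : H.Adj x y := by simpa using h1
      refine ⟨s(⟨x, H.edge_vert h2⟩, ⟨y, H.edge_vert h2.symm⟩), ?_, by simp⟩
      simp only [SimpleGraph.mem_edgeSet, SimpleGraph.comap_adj,
        Function.Embedding.subtype_apply, SimpleGraph.fromEdgeSet_adj]
      exact ⟨he, h2.ne⟩

lemma card_eq {V : Type u} {G : SimpleGraph V} (H : G.Subgraph) (p : Set (Sym2 V) → Prop) :
    Nat.card {T : SimpleGraph H.verts // (T ≤ H.coe ∧ T.IsTree) ∧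
      p (Sym2.map Subtype.val '' T.edgeSet)} =
    {T | Vale.Agent.P143.IsSpanningTree H T ∧ p T}.ncard := by
  rw [← Nat.card_coe_set_eq]
  refine Nat.card_congr
    { toFun := fun T => ⟨Sym2.map Subtype.val '' T.1.edgeSet, ⟨?_, ?_⟩, T.2.2⟩
      invFun := fun T => ⟨(SimpleGraph.fromEdgeSet T.1).induce H.verts, ⟨?_, T.2.1.2⟩, ?_⟩
      left_inv := fun T => Subtype.ext (back_edges _ _)
      right_inv := fun T => Subtype.ext (fwd_edges H T.1 T.2.1.1) }
  · rintro e ⟨d, hd, rfl⟩
    induction d using Sym2.ind with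
    | _ x y =>
      have h1 : T.1.Adj x y := by simpa using hd
      have h2 := T.2.1.1 h1
      simpa using h2
  · rw [back_edges]
    exact T.2.1.2
  · intro x y hxy
    simp only [SimpleGraph.comap_adj,
      Function.Embedding.subtype_apply, SimpleGraph.fromEdgeSet_adj] at hxy
    have := T.2.1.1 hxy.1
    simpa using this
  · rw [fwd_edges H T.1 T.2.1.1]
    exact T.2.2

lemma ust_eq {V : Type u} {G : SimpleGraph V} (H : G.Subgraph)
    (S : Finset (Sym2 V)) (A : Set (Sym2 V)) :
    ust H S A = Vale.Agent.P143.ustProb H S A := by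
  unfold ust Vale.Agent.P143.ustProb
  rw [card_eq H (fun T => ∀ e ∈ S, (e ∈ T ↔ e ∈ A))]
  congr 2
  have := card_eq H (fun _ => True)
  simpa using this

open Classical in
lemma law_of {V : Type u} [Countable V] (G : SimpleGraph V)
    (Φ : (V → unitInterval) → Set (Sym2 V)) (hΦ : Measurable Φ)
    (h : Vale.Agent.P143.IsFUSF G ((Vale.Agent.P143.iidLabels V).map Φ)) :
    HasLawFUSF G (fun U e => decide (e ∈ Φ U)) := by
  refine ⟨?_, ?_⟩
  · obtain ⟨H, hH⟩ := h.exists_exhaustion
    exact ⟨H, (exhausts_iff G H).2 hH⟩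
  · intro H hH S A
    have h1 := h.tendsto H ((exhausts_iff G H).1 hH) S A
    have h2 : ((Vale.Agent.P143.iidLabels V).map Φ).real {T | ∀ e ∈ S, (e ∈ T ↔ e ∈ A)}
        = (Vale.Agent.P143.iidLabels V).real {U | ∀ e ∈ S, (e ∈ Φ U ↔ e ∈ A)} := by
      rw [map_measureReal_apply hΦ]
      · rfl
      · have : {T : Set (Sym2 V) | ∀ e ∈ S, (e ∈ T ↔ e ∈ A)}
            = ⋂ e ∈ S, {T : Set (Sym2 V) | (e ∈ T ↔ e ∈ A)} := by
          ext T; simp
        rw [this]
        refine Finset.measurableSet_biInter S (fun e _ => ?_)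
        have h3 : MeasurableSet {T : Set (Sym2 V) | e ∈ T} :=
          measurableSet_setOfPred.2 (measurable_set_mem e)
        by_cases he : e ∈ A
        · have : {T : Set (Sym2 V) | (e ∈ T ↔ e ∈ A)} = {T : Set (Sym2 V) | e ∈ T} := by
            ext T; simp [he]
          rw [this]; exact h3
        · have : {T : Set (Sym2 V) | (e ∈ T ↔ e ∈ A)} = {T : Set (Sym2 V) | e ∈ T}ᶜ := by
            ext T; simp [he]
          rw [this]; exact h3.compl
    rw [h2] at h1
    simp only [ust_eq, decide_eq_true_eq]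
    exact h1

open Classical in
lemma meas_dec {α V : Type*} [MeasurableSpace α] (Φ : α → Set (Sym2 V)) (hΦ : Measurable Φ)
    (e : Sym2 V) : Measurable (fun a => decide (e ∈ Φ a)) := by
  have h3 : MeasurableSet {a | e ∈ Φ a} :=
    measurableSet_setOfPred.2 ((measurable_set_mem e).comp hΦ)
  refine measurable_to_bool ?_
  convert h3 using 1
  ext a
  simp

lemma measSet_adj (u v : ℕ) : MeasurableSet {G : SimpleGraph ℕ | G.Adj u v} :=
  measurableSet_setOfPred.2 (SimpleGraph.measurable_iff_adj.1 measurable_id u v)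

lemma measSet_walk (n : ℕ) : ∀ u v : ℕ,
    MeasurableSet {G : SimpleGraph ℕ | ∃ p : G.Walk u v, p.length = n} := by
  induction n with
  | zero =>
    intro u v
    by_cases h : u = v
    · subst h
      have : {G : SimpleGraph ℕ | ∃ p : G.Walk u u, p.length = 0} = Set.univ := by
        ext G
        simp only [Set.mem_ofPred_eq, Set.mem_univ, iff_true]
        exact ⟨SimpleGraph.Walk.nil, rfl⟩
      rw [this]; exact MeasurableSet.univ
    · have : {G : SimpleGraph ℕ | ∃ p : G.Walk u v, p.length = 0} = ∅ := by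
        ext G
        simp only [Set.mem_ofPred_eq, Set.mem_empty_iff_false, iff_false]
        rintro ⟨p, hp⟩
        exact h (SimpleGraph.Walk.eq_of_length_eq_zero hp)
      rw [this]; exact MeasurableSet.empty
  | succ n ih =>
    intro u v
    have : {G : SimpleGraph ℕ | ∃ p : G.Walk u v, p.length = n + 1}
        = ⋃ w, {G : SimpleGraph ℕ | G.Adj u w} ∩
            {G : SimpleGraph ℕ | ∃ p : G.Walk w v, p.length = n} := by
      ext G
      simp only [Set.mem_ofPred_eq, Set.mem_iUnion, Set.mem_inter_iff]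
      constructor
      · rintro ⟨p, hp⟩
        cases p with
        | nil => simp at hp
        | @cons _ w _ h q => exact ⟨w, h, q, by simpa using hp⟩
      · rintro ⟨w, h, q, hq⟩
        exact ⟨SimpleGraph.Walk.cons h q, by simp [hq]⟩
    rw [this]
    exact MeasurableSet.iUnion fun w => (measSet_adj u w).inter (ih w v)

lemma measSet_good :
    MeasurableSet {G : SimpleGraph ℕ | G.Connected ∧ ∀ v, (G.neighborSet v).Finite} := by
  have : {G : SimpleGraph ℕ | G.Connected ∧ ∀ v, (G.neighborSet v).Finite}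
      = (⋂ u : ℕ, ⋂ v : ℕ, ⋃ n : ℕ, {G : SimpleGraph ℕ | ∃ p : G.Walk u v, p.length = n}) ∩
        (⋂ v : ℕ, ⋃ N : ℕ, ⋂ w : ℕ, {G : SimpleGraph ℕ | G.Adj v w → w ≤ N}) := by
    ext G
    simp only [Set.mem_ofPred_eq, Set.mem_inter_iff, Set.mem_iInter, Set.mem_iUnion]
    refine and_congr ?_ (forall_congr' fun v => ?_)
    · rw [SimpleGraph.connected_iff]
      constructor
      · rintro ⟨h, -⟩ u v
        obtain ⟨p⟩ := h u v
        exact ⟨_, p, rfl⟩
      · intro h
        refine ⟨fun u v => ?_, inferInstance⟩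
        obtain ⟨_, p, -⟩ := h u v
        exact ⟨p⟩
    · rw [Set.finite_iff_bddAbove]
      rfl
  rw [this]
  refine MeasurableSet.inter (MeasurableSet.iInter fun u => MeasurableSet.iInter fun v =>
    MeasurableSet.iUnion fun n => measSet_walk n u v) (MeasurableSet.iInter fun v =>
    MeasurableSet.iUnion fun N => MeasurableSet.iInter fun w => ?_)
  by_cases h : w ≤ N
  · have : {G : SimpleGraph ℕ | G.Adj v w → w ≤ N} = Set.univ := by
      ext G; simp [h]
    rw [this]; exact MeasurableSet.univ
  · have : {G : SimpleGraph ℕ | G.Adj v w → w ≤ N} = {G : SimpleGraph ℕ | G.Adj v w}ᶜ := by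
      ext G; simp [h]
    rw [this]; exact (measSet_adj v w).compl

/-- Q1. Cayley graphs: edgewise equivariant measurable indicator. Unimodular random graphs
`(G, o)`, realised on the vertex set `ℕ`. -/
theorem result :
    (∀ (Γ : Type u) [Group Γ] [Infinite Γ] (S : Finset Γ), Subgroup.closure (S : Set Γ) = ⊤ →
      ∃ X : (Γ → unitInterval) → Sym2 Γ → Bool,
        (∀ e, Measurable (fun U => X U e)) ∧
        (∀ (γ : Γ) (U : Γ → unitInterval) (e : Sym2 Γ),
          X (fun v => U (γ⁻¹ * v)) (e.map (fun v => γ * v)) = X U e) ∧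
        HasLawFUSF (SimpleGraph.fromRel (fun x y : Γ => ∃ s ∈ S, x * s = y)) X) ∧
    (∀ (Ω : Type v) [MeasurableSpace Ω] (ℙ : Measure Ω) [IsProbabilityMeasure ℙ]
      (G : Ω → SimpleGraph ℕ) (o : Ω → ℕ), Measurable G → Measurable o →
      (∀ᵐ ω ∂ℙ, (G ω).Connected ∧ ∀ v, ((G ω).neighborSet v).Finite) →
      (∀ f : SimpleGraph ℕ → ℕ → ℕ → ENNReal, (∀ u v, Measurable (fun g => f g u v)) →
        (∀ (σ : Equiv.Perm ℕ) (g : SimpleGraph ℕ) (u v : ℕ),
          f (g.map σ.toEmbedding) (σ u) (σ v) = f g u v) →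
        ∫⁻ ω, ∑' v, f (G ω) (o ω) v ∂ℙ = ∫⁻ ω, ∑' v, f (G ω) v (o ω) ∂ℙ) →
      ∃ X : SimpleGraph ℕ → (ℕ → unitInterval) → Sym2 ℕ → Bool,
        (∀ e, Measurable (fun p : SimpleGraph ℕ × (ℕ → unitInterval) => X p.1 p.2 e)) ∧
        (∀ (σ : Equiv.Perm ℕ) (g : SimpleGraph ℕ) (U : ℕ → unitInterval) (e : Sym2 ℕ),
          X (g.map σ.toEmbedding) (fun v => U (σ.symm v)) (e.map σ) = X g U e) ∧
        ∀ᵐ ω ∂ℙ, HasLawFUSF (G ω) (X (G ω))) := by
  classical
  refine ⟨?_, ?_⟩
  · intro Γ _ _ S hS
    have : Countable Γ := Vale.Agent.P143.countable_of_closure S hS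
    obtain ⟨μ, hμ, Φ, hΦm, hΦe, hΦl⟩ := FusfFactor.result.1 Γ S hS
    subst hΦl
    have hgr : (SimpleGraph.fromRel (fun x y : Γ => ∃ s ∈ S, x * s = y))
        = Vale.Agent.P143.cayleyGraph S := by
      have : (fun x y : Γ => ∃ s ∈ S, x * s = y) = (fun x y => x⁻¹ * y ∈ S) := by
        funext x y
        apply propext
        constructor
        · rintro ⟨s, hs, rfl⟩
          simpa using hs
        · intro h
          exact ⟨_, h, by simp⟩
      rw [this]
      rfl
    refine ⟨fun U e => decide (e ∈ Φ U), fun e => meas_dec Φ hΦm e, ?_, ?_⟩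
    · intro γ U e
      change decide (_ ∈ Φ _) = decide (e ∈ Φ U)
      rw [hΦe]
      congr 1
      apply propext
      constructor
      · rintro ⟨d, hd, hde⟩
        have : d = e := Sym2.map.injective (mul_right_injective γ) hde
        rwa [← this]
      · intro h
        exact ⟨e, h, rfl⟩
    · rw [hgr]
      exact law_of _ Φ hΦm hμ
  · intro Ω _ ℙ _ G o hG ho h1 h2
    have hm : Measurable (fun ω => (G ω, o ω)) := hG.prodMk ho
    have hP : Vale.Agent.P143.IsUnimodular (ℙ.map (fun ω => (G ω, o ω))) := by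
      have h3 : ∀ᵐ x ∂(ℙ.map (fun ω => (G ω, o ω))),
          x.1.Connected ∧ ∀ v, (x.1.neighborSet v).Finite :=
        (ae_map_iff hm.aemeasurable (measurable_fst measSet_good)).2 h1
      refine ⟨Measure.isProbabilityMeasure_map hm.aemeasurable, ?_, ?_, ?_⟩
      · filter_upwards [h3] with x hx using hx.1
      · filter_upwards [h3] with x hx using hx.2
      · intro f hf hinv
        have m1 : Measurable (fun x : SimpleGraph ℕ × ℕ => ∑' v, f x.1 x.2 v) := by
          refine Measurable.tsum fun v => ?_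
          exact measurable_from_prod_countable_left fun u => hf u v
        have m2 : Measurable (fun x : SimpleGraph ℕ × ℕ => ∑' v, f x.1 v x.2) := by
          refine Measurable.tsum fun v => ?_
          exact measurable_from_prod_countable_left fun u => hf v u
        rw [lintegral_map m1 hm, lintegral_map m2 hm]
        exact h2 f hf hinv
    obtain ⟨Φ, hΦm, hΦe, hΦl⟩ := FusfFactor.result.{0}.2 _ hP
    refine ⟨fun g U e => decide (e ∈ Φ g U), fun e => ?_, ?_, ?_⟩
    · exact meas_dec (Function.uncurry Φ) hΦm e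
    · intro σ g U e
      change decide (_ ∈ Φ _ _) = decide (e ∈ Φ g U)
      rw [hΦe]
      congr 1
      apply propext
      constructor
      · rintro ⟨d, hd, hde⟩
        have : d = e := Sym2.map.injective σ.injective hde
        rwa [← this]
      · intro h
        exact ⟨e, h, rfl⟩
    · have h3 := ae_of_ae_map hm.aemeasurable hΦl
      filter_upwards [h3] with ω hω
      exact law_of _ _ (hΦm.comp measurable_prodMk_left) hω

end Vale.Agent.Results.P143.FusfFactorEdgewise
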